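import Vale.Agent.P227.Defs
import Vale.Agent.P227.Final

open MeasureTheory Vale.Agent.P227

namespace Vale.Agent.Results.P227.Reflections

theorem result (n : ℕ) (h2 : 2 ≤ n)
    (b : Module.Basis (Fin n) ℝ (EuclideanSpace ℝ (Fin n)))
    (J : Finset (Fin n)) (hJ : n - 2 ≤ J.card)
    (K L : Set (EuclideanSpace ℝ (Fin n)))
    (hK : IsSymmBody K) (hL : IsSymmBody L)
    (hKJ : ∀ i ∈ J, ∀ x ∈ K, basisReflection b i x ∈ K)
    (hLJ : ∀ i ∈ J, ∀ x ∈ L, basisReflection b i x ∈ L)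
    (lam : ℝ) (h0 : 0 ≤ lam) (h1 : lam ≤ 1) :
    volume K ^ (1 - lam) * volume L ^ lam ≤ volume (logComb K L lam) :=
  main h2 b J (by omega) hK hL hKJ hLJ h0 h1

end Vale.Agent.Results.P227.Reflections
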